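import Vale.Agent.H17.P176.Main

/-!
Finitistic dimension: `findim L ≤ findim A + findim (L / JL)` for ring extensions `A → L` with
`L` projective over `A` and `J` a nilpotent ideal of `A` such that `JL` is an ideal of `L`; in
particular `findim (A ⊗ B) ≤ findim A + findim B`.
-/

namespace Vale.Agent.Results.P176.FibrationInequality

open Vale.Agent.H17.P176 TensorProduct

universe u

theorem result :
    -- the fibration inequality
    (∀ (A L : Type u) [Ring A] [Ring L] [Module A L] [IsScalarTower A L L] [IsNoetherianRing L]
      [Module.Finite A L] (J : Ideal A) (I : Ideal L) [I.IsTwoSided] (a b : ℕ),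
      Module.Projective A L → IsNilpotent J →
      (I : Set L) = (AddSubgroup.closure {z : L | ∃ j ∈ J, ∃ y : L, z = j • y} : Set L) →
      FindimLE A a → FindimLE (L ⧸ I) b → FindimLE L (a + b)) ∧
    -- tensor products of finite-dimensional algebras
    (∀ (k : Type u) [Field k] [IsAlgClosed k] (A B : Type u) [Ring A] [Ring B] [Algebra k A]
      [Algebra k B] [FiniteDimensional k A] [FiniteDimensional k B] (a b : ℕ),
      FindimLE A a → FindimLE B b → FindimLE (A ⊗[k] B) (a + b)) := by
  refine ⟨?_, ?_⟩
  · intro A L _ _ _ _ _ _ J I _ a b hproj hJ hI ha hb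
    have h : IsFibre I (J : Set A) := by
      constructor
      · intro j hj
        have : j • (1 : L) ∈ (I : Set L) := by
          rw [hI]
          exact AddSubgroup.subset_closure ⟨j, hj, 1, rfl⟩
        exact this
      · intro x hx
        have : x ∈ (I : Set L) := hx
        rw [hI] at this
        exact this
    exact findim_fib h hproj (isNilpotent_of_fibre h hJ) ha hb
  · intro k _ _ A B _ _ _ _ _ _ a b ha hb
    exact findim_tensor k A B a b ha hb

end Vale.Agent.Results.P176.FibrationInequality
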